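import Vale.Agent.P025.R2.H651.Deg
import Vale.Agent.P025.R2.H376.RedPow
import Vale.Agent.P025.R2.H885.Pow
import Vale.Agent.P025.R2.H992.Prank
import Vale.Agent.P025.R2.H621.Defs

/-!
# P025 (7.3), G-BRANCH (helper651)

`branch`: the reduction of the Artin-Schreier form of `f`, `div f = 0 mod p`, is unramified at all
places of the residue field;
`splitNear`: `f` is split just outside of every disc.

Both by limits of absolute values along an ultrafilter.
-/

set_option linter.unusedSectionVars false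
set_option linter.style.haveILetI false

open Polynomial IntermediateField Filter Topology

universe u

namespace P025H651

open P025H373 P025H746 P025H725 P025H992 Vale.Agent.P019P

noncomputable section

/-! ## Small lemmas -/

section small

variable {C K : Type*} [NontriviallyNormedField C] [IsUltrametricDist C] [Field K] [Algebra C K]

theorem charP_kap {p : ℕ} (hp : p.Prime) (hpC : ‖(p : C)‖ < 1) (w : NV C K) :
    CharP (kap w) p := by
  rw [CharP.charP_iff_prime_eq_zero hp]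
  have h1 : w.red (algebraMap C K (p : C)) = 0 := by
    rw [NV.red_algebraMap hpC.le, (cred_eq_zero hpC.le).2 hpC, map_zero]
  have h2 : ∀ n : ℕ, w.red (n : K) = (n : kap w) := by
    intro n
    have hn : ∀ n : ℕ, w (n : K) ≤ 1 := fun n => by
      rw [← map_natCast (algebraMap C K), w.ext']
      exact IsUltrametricDist.norm_natCast_le_one C n
    induction n with
    | zero => simp
    | succ n ih => rw [Nat.cast_succ, NV.red_add (hn n) (by rw [map_one]), ih, NV.red_one,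
        Nat.cast_succ]
  rw [map_natCast (algebraMap C K), h2] at h1
  exact h1

/-- `w` induces the Gauss norm on `C[z]` if the residue of `z` is transcendental -/
theorem overG_of_transc {w : NV C K} {z : K} (hz : w z ≤ 1)
    (ht : Transcendental (kC C) (w.red z)) : w.OverG z := by
  have key : ∀ P : C[X], gp P = 1 → w (aeval z P) = 1 := by
    intro P hP
    refine le_antisymm (NV.aeval_le hz hP.le) ?_
    by_contra hlt
    push Not at hlt
    have h1 := NV.red_of_lt hlt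
    rw [NV.red_aeval hz hP.le] at h1
    have h2 := (transcendental_iff.1 ht) _ h1
    rw [pred_eq_zero hP.le, hP] at h2
    exact lt_irrefl _ h2
  intro P
  by_cases hP : P = 0
  · rw [hP, map_zero, map_zero]
    exact (gp_eq_zero.2 rfl).symm
  obtain ⟨i, hi⟩ := exists_coeff_eq P
  have h0 : P.coeff i ≠ 0 := by
    intro h
    rw [h, norm_zero] at hi
    exact (gp_pos hP).ne hi
  have h1 := key (Polynomial.C (P.coeff i)⁻¹ * P) (by
    rw [gp_mul, gp_C, norm_inv, hi, inv_mul_cancel₀ (gp_pos hP).ne'])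
  rw [map_mul, aeval_C, map_mul, w.ext', norm_inv, hi] at h1
  rw [inv_mul_eq_one₀ (gp_pos hP).ne'] at h1
  exact h1.symm

/-- change of the Artin-Schreier form -/
theorem change {p : ℕ} (hp : p.Prime) (hpC : ‖(p : C)‖ < 1) (h0 : (p : C) ≠ 0) {l : C}
    (hl : l ^ (p - 1) = -(p : C)) {w : NV C K} {f y A : K} (hy : y ≠ 0) (hA : w A ≤ 1)
    (hf : f = y ^ p * (1 + algebraMap C K l ^ p * A)) (b : kap w) :
    ∃ y' A' : K, y' ≠ 0 ∧ w A' ≤ 1 ∧ f = y' ^ p * (1 + algebraMap C K l ^ p * A') ∧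
      w.red A' = w.red A - (b ^ p - b) := by
  obtain ⟨B, hB, rfl⟩ := NV.red_surj b
  have hl0 : 0 < ‖l‖ := norm_l_pos hp h0 hl
  have hl1 : ‖l‖ < 1 := norm_l_lt hpC hl
  have hlp0 : 0 < ‖l‖ ^ p := pow_pos hl0 _
  have hwL : w (algebraMap C K l) = ‖l‖ := w.ext' l
  have hρw := w_one_add_pow (K := K) hp hpC h0 hl hB
  set L := algebraMap C K l with hL
  set ρ := (1 + L * B) ^ p - 1 - L ^ p * (B ^ p - B) with hρ
  have hLB : w (L * B) < 1 := by
    rw [map_mul, hwL]
    exact lt_of_le_of_lt (mul_le_of_le_one_right hl0.le hB) hl1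
  have hu : w (1 + L * B) = 1 := P025H376.w_one_add_of_lt hLB
  have hu0 : 1 + L * B ≠ 0 := by
    intro h
    rw [h, map_zero] at hu
    exact zero_ne_one hu
  have hL0 : L ^ p ≠ 0 := by
    refine pow_ne_zero _ ?_
    rw [hL, Ne, map_eq_zero]
    exact norm_pos_iff.1 hl0
  have hρL : w (ρ / L ^ p) < 1 := by
    rw [map_div₀, map_pow, hwL, div_lt_one hlp0]
    exact hρw
  have hbp : w (B ^ p - B) ≤ 1 := NV.sub_le (NV.pow_le_one' hB p) hB
  have hnum : w (A - (B ^ p - B) - ρ / L ^ p) ≤ 1 := NV.sub_le (NV.sub_le hA hbp) hρL.le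
  have hinv : w ((1 + L * B) ^ p)⁻¹ = 1 := by
    rw [map_inv₀, map_pow, hu, one_pow, inv_one]
  refine ⟨y * (1 + L * B), (A - (B ^ p - B) - ρ / L ^ p) * ((1 + L * B) ^ p)⁻¹,
    mul_ne_zero hy hu0, NV.mul_le_one hnum hinv.le, ?_, ?_⟩
  · have h1bp : (1 + L * B) ^ p ≠ 0 := pow_ne_zero _ hu0
    rw [hf, hρ, mul_pow]
    generalize (1 + L * B) ^ p = D at h1bp ⊢
    generalize y ^ p = Y
    field_simp
    ring
  · have hru : w.red ((1 + L * B) ^ p)⁻¹ = 1 := by
      rw [NV.red_inv (by rw [map_pow, hu, one_pow]), NV.red_pow hu.le,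
        NV.red_add (by rw [map_one]) hLB.le, NV.red_one, NV.red_of_lt hLB, add_zero, one_pow,
        inv_one]
    rw [NV.red_mul hnum hinv.le, hru, mul_one, NV.red_sub (NV.sub_le hA hbp) hρL.le,
      NV.red_sub hA hbp, NV.red_sub (NV.pow_le_one' hB p) hB, NV.red_pow hB, NV.red_of_lt hρL,
      sub_zero]

end small

/-! ## The main theorems -/

section main

variable {C K : Type u} [NontriviallyNormedField C] [IsUltrametricDist C] [IsAlgClosed C]
  [Field K] [Algebra C K] [CFF C K]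

theorem exists_seq (hv : ∀ r : ℝ, 0 ≤ r → ∃ x : C, ‖x‖ = r) :
    ∃ s : ℕ → C, (∀ n, 1 < ‖s n‖) ∧
      Tendsto (fun n => ‖s n‖) (hyperfilter ℕ : Filter ℕ) (𝓝 1) := by
  choose s hs using fun n : ℕ => hv (1 + 1 / ((n : ℝ) + 1)) (by positivity)
  refine ⟨s, fun n => ?_, ?_⟩
  · rw [hs]
    have : (0 : ℝ) < 1 / ((n : ℝ) + 1) := by positivity
    linarith
  · have h1 : Tendsto (fun n : ℕ => 1 + 1 / ((n : ℝ) + 1)) atTop (𝓝 1) := by
      have := (tendsto_one_div_add_atTop_nhds_zero_nat (𝕜 := ℝ)).const_add 1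
      rwa [add_zero] at this
    simp only [hs]
    exact h1.mono_left Nat.hyperfilter_le_atTop

/-- **(7.3) (b)**: the reduction is unramified at all places of the residue field -/
theorem branch (hS : ∀ z : K, Transcendental C z →
      ∑ᶠ w : {w : NV C K // w.OverG z}, Module.finrank (kC C)⟮w.1.red z⟯ (kap w.1) =
        Module.finrank C⟮z⟯ K)
    (hv : ∀ r : ℝ, 0 ≤ r → ∃ x : C, ‖x‖ = r) {p : ℕ} (hp : p.Prime)
    (hpC : ‖(p : C)‖ < 1) (h0 : (p : C) ≠ 0)
    (hN : ∀ g : K, g ≠ 0 → P025H621.DivN C p g → ∀ (T : K) (w : NV C K), w.OverG T → NearW p w g)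
    {l : C} (hl : l ^ (p - 1) = -(p : C))
    {w : NV C K} [CFF (kC C) (kap w)] {f y A : K} (hf : f ≠ 0)
    (hd : P025H621.DivN C p f) (hA : w A ≤ 1) (hy : y ≠ 0)
    (h : f = y ^ p * (1 + algebraMap C K l ^ p * A)) (x : Plk (kC C) (kap w)) :
    ∃ b : kap w, w.red A - (b ^ p - b) ∈ Mge x 0 := by
  have : Fact p.Prime := ⟨hp⟩
  have := charP_kap hp hpC w
  rcases exists_normal (p := p) x (w.red A) with ⟨b, hb⟩ | ⟨b, hb1, hb2⟩
  · exact ⟨b, mem_iff_Mge.1 hb⟩
  exfalso
  obtain ⟨y', A', hy', hA', hf', hred⟩ := change hp hpC h0 hl hy hA h b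
  rw [← hred] at hb1 hb2
  -- a uniformizer
  obtain ⟨ζ, hζ0, hζ⟩ := exists_unif x
  obtain ⟨z, hz1, rfl⟩ := NV.red_surj ζ
  have hz : w z = 1 := by
    refine le_antisymm hz1 ?_
    by_contra hlt
    push Not at hlt
    exact hζ0 (NV.red_of_lt hlt)
  have hznc : ∀ a : kC C, w.red z ≠ algebraMap (kC C) (kap w) a := by
    intro a ha
    rw [ha, ord_const] at hζ
    exact zero_ne_one hζ
  have hwz : w.OverG z := overG_of_transc hz1 (finite_of_notMem hznc).1
  have hwT : w.OverG z⁻¹ := hwz.inv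
  have hT : Transcendental C z⁻¹ := hwT.transc
  haveI : FiniteDimensional C⟮z⁻¹⟯ K := (finite_of_notMem (fun a ha => by
    rw [ha] at hT
    exact hT (isAlgebraic_algebraMap a))).2
  have hxT : ord x (w.red z⁻¹) = -1 := by
    rw [NV.red_inv hz, ord_inv, hζ]
  obtain ⟨s, hs1, hs⟩ := exists_seq hv
  obtain ⟨W, hspz, hWG, hW1⟩ := exists_branch (U := hyperfilter ℕ) hv (hS _ hT)
    (Eventually.of_forall hs1) hs hwT hxT
  -- the function `A' z ^ m`
  obtain ⟨m, hm⟩ : ∃ m : ℕ, ord x (w.red A') = -(m : ℤ) := ⟨(-ord x (w.red A')).toNat, by omega⟩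
  have hm0 : m ≠ 0 := by
    rintro rfl
    rw [hm] at hb1
    simp at hb1
  have hpm : ¬ p ∣ m := by
    intro hdvd
    apply hb2
    rw [hm, dvd_neg]
    exact_mod_cast hdvd
  have hredA : w.red A' ≠ 0 := by
    intro h
    rw [h, ord_zero] at hb1
    exact lt_irrefl _ hb1
  have hwA' : w A' = 1 := by
    refine le_antisymm hA' ?_
    by_contra hlt
    push Not at hlt
    exact hredA (NV.red_of_lt hlt)
  have hwh : w (A' * z ^ m) = 1 := by rw [map_mul, map_pow, hwA', hz, one_pow, one_mul]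
  have hoh : ord x (w.red (A' * z ^ m)) = 0 := by
    rw [NV.red_mul hA' (NV.pow_le_one' hz1 m), NV.red_pow hz1,
      ord_mul x hredA (pow_ne_zero _ hζ0), ord_pow, hζ, hm]
    ring
  obtain ⟨c, hc, hcn⟩ := hspz.exists_unit hwh hoh
  have hl0 : 0 < ‖l‖ := norm_l_pos hp h0 hl
  have hl1 : ‖l‖ < 1 := norm_l_lt hpC hl
  have hlp1 : ‖l‖ ^ p < 1 := pow_lt_one₀ hl0.le hl1 hp.ne_zero
  have hlim : ∀ᶠ n in (hyperfilter ℕ : Filter ℕ), ‖l‖ ^ p * ‖s n‖ ^ m < 1 := by
    have h1 := (hs.pow m).const_mul (‖l‖ ^ p)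
    rw [one_pow, mul_one] at h1
    exact h1.eventually (gt_mem_nhds hlp1)
  obtain ⟨n, hn1, hn2, hn3, hn4⟩ := (hWG.and (hW1.and (hcn.and hlim))).exists
  have hsn1 : 1 < ‖s n‖ := hs1 n
  have hsn : s n ≠ 0 := by
    intro h
    rw [h, norm_zero] at hsn1
    linarith
  set v := W n with hvdef
  haveI := finite_div (T := z⁻¹) hsn
  haveI := hn1.cff
  have hz0 : z ≠ 0 := by
    rintro rfl
    rw [map_zero] at hz
    exact zero_ne_one hz
  have hτ := hn1.apply_T
  have hvz : v z = ‖s n‖⁻¹ := by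
    rw [map_div₀, map_inv₀, v.ext', div_eq_one_iff_eq (norm_ne_zero_iff.2 hsn)] at hτ
    rw [← hτ, inv_inv]
  have hvh : v (A' * z ^ m) = 1 := eq_one_of_sub_lt hc hn3
  have hvA : v A' = ‖s n ^ m‖ := by
    rw [map_mul, map_pow, hvz, inv_pow, mul_inv_eq_one₀ (by positivity)] at hvh
    rw [hvh, norm_pow]
  have h1A : 1 < v A' := by
    rw [hvA, norm_pow]
    exact one_lt_pow₀ hsn1 hm0
  obtain ⟨g, hg⟩ := P025H376.red_pow_of_near hp hpC h0 hl hy' hf' h1A (by
    rw [hvA, norm_pow]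
    exact hn4) (hN f hf hd _ v hn1) hvA
  have hsK : algebraMap C K (s n) ≠ 0 := by rwa [Ne, map_eq_zero]
  have h3 : v.red (A' / algebraMap C K (s n ^ m)) =
      algebraMap (kC C) (kap v) (cred c) * v.red (z⁻¹ / algebraMap C K (s n)) ^ m := by
    have h4 : A' / algebraMap C K (s n ^ m) =
        (A' * z ^ m) * (z⁻¹ / algebraMap C K (s n)) ^ m := by
      rw [map_pow, div_pow, inv_pow]
      field_simp
    rw [h4, NV.red_mul hvh.le (NV.pow_le_one' hτ.le m), NV.red_pow hτ.le]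
    congr 1
    rw [← NV.red_algebraMap hc.le, ← sub_eq_zero,
      ← NV.red_sub hvh.le (by rw [v.ext']; exact hc.le)]
    exact NV.red_of_lt hn3
  rw [h3] at hg
  refine P025H885.const_mul_pow_ne hn2 hn1.red_ne hpm (c := cred c) ?_ g hg
  rw [Ne, cred_eq_zero hc.le, hc]
  exact lt_irrefl _

/-- **(7.3) (a)**: `f` is split just outside of every disc -/
theorem splitNear (hS : ∀ z : K, Transcendental C z →
      ∑ᶠ w : {w : NV C K // w.OverG z}, Module.finrank (kC C)⟮w.1.red z⟯ (kap w.1) =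
        Module.finrank C⟮z⟯ K)
    (hv : ∀ r : ℝ, 0 ≤ r → ∃ x : C, ‖x‖ = r) {p : ℕ} (hp : p.Prime)
    (hpC : ‖(p : C)‖ < 1) (h0 : (p : C) ≠ 0)
    (hN : ∀ g : K, g ≠ 0 → P025H621.DivN C p g → ∀ (T : K) (w : NV C K), w.OverG T → NearW p w g) :
    ∀ f : K, f ≠ 0 → P025H621.DivN C p f → ∀ (t : K), Transcendental C t → ∀ (a b : C), b ≠ 0 →
    ∃ r₁, ‖b‖ < r₁ ∧ ∀ b' : C, ‖b‖ < ‖b'‖ → ‖b'‖ < r₁ → ∀ w : NV C K,
      w.OverG ((t - algebraMap C K a) / algebraMap C K b') → SplitW p w f := by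
  intro f hf hd t ht a b hb
  have : Fact p.Prime := ⟨hp⟩
  by_contra hcon
  push Not at hcon
  have hb0 : 0 < ‖b‖ := norm_pos_iff.2 hb
  have hstep : ∀ n : ℕ, ‖b‖ < ‖b‖ * (1 + 1 / ((n : ℝ) + 1)) := by
    intro n
    have : (0 : ℝ) < 1 / ((n : ℝ) + 1) := by positivity
    nlinarith
  choose b' hb1 hb2 W hWG hns using fun n : ℕ => hcon _ (hstep n)
  have hbK : algebraMap C K b ≠ 0 := by rwa [Ne, map_eq_zero]
  set T := (t - algebraMap C K a) / algebraMap C K b with hTdef
  have hTs : ∀ n, T / algebraMap C K (b' n / b) =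
      (t - algebraMap C K a) / algebraMap C K (b' n) := by
    intro n
    rw [hTdef, map_div₀, div_div_div_cancel_right₀ hbK]
  have hs1 : ∀ n, 1 < ‖b' n / b‖ := by
    intro n
    rw [norm_div, one_lt_div hb0]
    exact hb1 n
  have hs : Tendsto (fun n => ‖b' n / b‖) (hyperfilter ℕ : Filter ℕ) (𝓝 1) := by
    have h1 : Tendsto (fun n : ℕ => 1 + 1 / ((n : ℝ) + 1)) atTop (𝓝 1) := by
      have := (tendsto_one_div_add_atTop_nhds_zero_nat (𝕜 := ℝ)).const_add 1
      rwa [add_zero] at this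
    refine Tendsto.mono_left ?_ Nat.hyperfilter_le_atTop
    refine tendsto_of_tendsto_of_tendsto_of_le_of_le tendsto_const_nhds h1
      (fun n => (hs1 n).le) (fun n => ?_)
    rw [norm_div, div_le_iff₀ hb0, mul_comm]
    exact (hb2 n).le
  have hTtr : Transcendental C T := by
    refine transc_div (s := b) ?_ hb
    intro h
    refine ht ?_
    have h1 := h.add (isAlgebraic_algebraMap (A := K) a)
    rwa [sub_add_cancel] at h1
  haveI : FiniteDimensional C⟮T⟯ K := (finite_of_notMem (fun c hc => by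
    rw [hc] at hTtr
    exact hTtr (isAlgebraic_algebraMap c))).2
  obtain ⟨w, hw, x, hx, hspz⟩ := exists_spz (U := hyperfilter ℕ) (W := W) (T := T)
    (s := fun n => b' n / b) (Eventually.of_forall hs1) hs
    (Eventually.of_forall fun n => by rw [hTs]; exact hWG n)
  haveI := hw.cff
  have hchar := charP_kap hp hpC w
  obtain ⟨l, hl⟩ := IsAlgClosed.exists_pow_nat_eq (-(p : C))
    (Nat.sub_pos_of_lt hp.one_lt)
  obtain ⟨y, A, hy, hA, hform⟩ := (hN f hf hd T w hw).exists_form hp h0 hl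
  obtain ⟨b₁, hb₁⟩ := branch hS hv hp hpC h0 hN hl hf hd hA hy hform x
  -- the constant term
  obtain ⟨c₀, hc₀⟩ := exists_cst x (mem_iff_Mge.2 hb₁)
  obtain ⟨d, hd'⟩ := exists_wp_const (F := kap w) (p := p) c₀
  have hvan : w.red A - ((b₁ + algebraMap (kC C) (kap w) d) ^ p -
      (b₁ + algebraMap (kC C) (kap w) d)) ∈ Mge x 1 := by
    have h1 : w.red A - ((b₁ + algebraMap (kC C) (kap w) d) ^ p -
        (b₁ + algebraMap (kC C) (kap w) d)) =
        w.red A - (b₁ ^ p - b₁) - algebraMap (kC C) (kap w) c₀ := by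
      rw [← hd', add_pow_char, map_sub, map_pow]
      ring
    rw [h1]
    rcases hc₀ with hc₀ | hc₀
    · left
      rw [hc₀, sub_self]
    · right
      omega
  obtain ⟨y', A', hy', hA', hf', hred⟩ := change hp hpC h0 hl hy hA hform
    (b₁ + algebraMap (kC C) (kap w) d)
  rw [← hred] at hvan
  obtain ⟨n, hn⟩ := (hspz.lt_one hA' hvan).exists
  refine hns n ⟨y', hy', ?_⟩
  refine pow_lt_of_lt' hp hl ((W n).av.nonneg _) ?_
  have h1 : f / y' ^ p - 1 = algebraMap C K l ^ p * A' := by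
    have hyp : y' ^ p ≠ 0 := pow_ne_zero _ hy'
    rw [hf', mul_div_cancel_left₀ _ hyp]
    ring
  rw [h1, map_mul, map_pow, (W n).ext']
  exact mul_lt_of_lt_one_right (pow_pos (norm_l_pos hp h0 hl) _) hn

end main

end

end P025H651
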