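import Vale.Agent.P025.R2.H651.Fam

/-!
# P025 G-BRANCH (helper651): the count

`∑ e_x = ∑ f_w = N`, so the absolute values over the Gauss norm of `T / s n` near the place `(w, x)`
have residue degree `e_x`.
-/

set_option linter.unusedSectionVars false
set_option linter.style.haveILetI false

open Polynomial IntermediateField Filter Topology

namespace P025H651

open P025H373 P025H746 Vale.Agent.P019P

noncomputable section

/-! ## Function fields -/

section ff

variable {k F : Type*} [Field k] [Field F] [Algebra k F] [CFF k F]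

/-- if `c z ^ e = x` then `e ≤ [F : k(x)]` -/
theorem le_finrank_of_pow {x z : F} (hx : ∀ a : k, x ≠ algebraMap k F a) {e : ℕ} {c : k}
    (h : algebraMap k F c * z ^ e = x) : e ≤ Module.finrank k⟮x⟯ F := by
  classical
  have hx0 : x ≠ 0 := fun h0 => hx 0 (by rw [h0, map_zero])
  have hc : algebraMap k F c ≠ 0 := by
    intro h0
    rw [h0, zero_mul] at h
    exact hx0 h.symm
  have hze : z ^ e ≠ 0 := by
    intro h0
    rw [h0, mul_zero] at h
    exact hx0 h.symm
  obtain ⟨P, hP⟩ := exists_pole hx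
  have h1 : ord P x = e * ord P z := by
    rw [← h, ord_mul P hc hze, ord_const, ord_pow, zero_add]
  have h2 : (pol k x) P ≤ dg (pol k x) := by
    rw [dg_eq_sum (S := insert P (pol k x).support) (fun Q hQ => by
      rw [Finset.mem_insert, not_or] at hQ
      exact Finsupp.notMem_support_iff.1 hQ.2)]
    exact Finset.single_le_sum (f := fun Q => (pol k x) Q) (fun Q _ => pol_nonneg x Q)
      (Finset.mem_insert_self _ _)
  rw [dg_pol hx, pol_apply, h1] at h2
  have h3 : ord P z < 0 := by
    by_contra hcon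
    push Not at hcon
    have : 0 ≤ (e : ℤ) * ord P z := mul_nonneg (Int.natCast_nonneg _) hcon
    omega
  have h4 : (e : ℤ) ≤ -(e * ord P z) := by nlinarith
  have h5 : (e : ℤ) ≤ Module.finrank k⟮x⟯ F := h4.trans ((le_max_right _ _).trans h2)
  exact_mod_cast h5

theorem finite_poles {τ : F} (hτ : ∀ a : k, τ ≠ algebraMap k F a) :
    Finite {x : Plk k F // τ ∉ x.1} := by
  have hτ0 : τ ≠ 0 := fun h0 => hτ 0 (by rw [h0, map_zero])
  have h1 : {x : Plk k F | τ ∉ x.1}.Finite :=
    (dv_finite (k := k) hτ0).subset fun x hx (h0 : ord x τ = 0) => hx (by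
      rw [mem_iff_ord]
      exact Or.inr h0.ge)
  exact h1.to_subtype

theorem sum_poles {τ : F} (hτ : ∀ a : k, τ ≠ algebraMap k F a)
    [Fintype {x : Plk k F // τ ∉ x.1}] :
    ∑ x : {x : Plk k F // τ ∉ x.1}, (-ord x.1 τ).toNat = Module.finrank k⟮τ⟯ F := by
  classical
  have h1 := dg_pol hτ
  let S : Finset (Plk k F) := Finset.univ.map ⟨Subtype.val, Subtype.val_injective⟩ (α := {x : Plk k F // τ ∉ x.1})
  rw [dg_eq_sum (S := S) (fun Q hQ => by
    rw [pol_apply]
    have h2 : τ ∈ Q.1 := by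
      by_contra hcon
      exact hQ (Finset.mem_map.2 ⟨⟨Q, hcon⟩, Finset.mem_univ _, rfl⟩)
    rw [mem_iff_ord] at h2
    rcases h2 with h2 | h2
    · rw [h2, ord_zero]; rfl
    · omega), Finset.sum_map] at h1
  have h2 : ((∑ x : {x : Plk k F // τ ∉ x.1}, (-ord x.1 τ).toNat : ℕ) : ℤ) =
      Module.finrank k⟮τ⟯ F := by
    rw [← h1, Nat.cast_sum]
    refine Finset.sum_congr rfl fun x _ => ?_
    rw [Int.toNat_eq_max, max_comm]
    exact (pol_apply τ x.1).symm
  exact_mod_cast h2

end ff

/-! ## Enumeration of the absolute values -/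

section enum

variable {C K : Type*} [NontriviallyNormedField C] [IsUltrametricDist C] [IsAlgClosed C]
  [Field K] [Algebra C K] {ι : Type*} {U : Ultrafilter ι} {T : K} {s : ι → C}

theorem finrank_div {s : C} (hs : s ≠ 0) (T : K) :
    Module.finrank C⟮T / algebraMap C K s⟯ K = Module.finrank C⟮T⟯ K := by
  rw [adjoin_div_eq hs]

theorem finite_div [FiniteDimensional C⟮T⟯ K] {s : C} (hs : s ≠ 0) :
    FiniteDimensional C⟮T / algebraMap C K s⟯ K := by
  rw [adjoin_div_eq hs]
  infer_instance

theorem transc_div (hT : Transcendental C T) {s : C} (hs : s ≠ 0) :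
    Transcendental C (T / algebraMap C K s) := by
  intro h
  refine hT ?_
  have h1 : T = T / algebraMap C K s * algebraMap C K s := by
    rw [div_mul_cancel₀]
    rw [Ne, map_eq_zero]
    exact hs
  rw [h1]
  exact h.mul (isAlgebraic_algebraMap s)

theorem exists_enum [FiniteDimensional C⟮T⟯ K] (hT : Transcendental C T)
    (hs1 : ∀ᶠ n in (U : Filter ι), 1 < ‖s n‖) :
    ∃ G : Fin (Module.finrank C⟮T⟯ K) → ι → NV C K,
      (∀ᶠ n in (U : Filter ι), ∀ j, (G j n).OverG (T / algebraMap C K (s n))) ∧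
      ∀ᶠ n in (U : Filter ι), ∀ w' : NV C K, w'.OverG (T / algebraMap C K (s n)) →
        ∃ j, w' = G j n := by
  classical
  have hnt : ∃ c : C, 1 < ‖c‖ := NormedField.exists_one_lt_norm C
  obtain ⟨w₀, hw₀⟩ := P025H458.exists_over hT hnt
  have key : ∀ n, ∃ g : Fin (Module.finrank C⟮T⟯ K) → NV C K, s n ≠ 0 →
      (∀ j, (g j).OverG (T / algebraMap C K (s n))) ∧
      ∀ w' : NV C K, w'.OverG (T / algebraMap C K (s n)) → ∃ j, w' = g j := by
    intro n
    by_cases hsn : s n = 0
    · exact ⟨fun _ => w₀, fun h => absurd hsn h⟩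
    haveI := finite_div (T := T) hsn
    haveI : Nonempty {w : NV C K // w.OverG (T / algebraMap C K (s n))} := by
      obtain ⟨w, hw⟩ := P025H458.exists_over (transc_div hT hsn) hnt
      exact ⟨⟨w, hw⟩⟩
    letI := Fintype.ofFinite {w : NV C K // w.OverG (T / algebraMap C K (s n))}
    have hcard : Fintype.card {w : NV C K // w.OverG (T / algebraMap C K (s n))} ≤
        Module.finrank C⟮T⟯ K := by
      rw [← finrank_div hsn T]
      refine le_trans ?_ (sum_finrank_le (T := T / algebraMap C K (s n))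
        (fun w : {w : NV C K // w.OverG (T / algebraMap C K (s n))} => w.1)
        Subtype.val_injective (fun w => w.2))
      rw [Fintype.card_eq_sum_ones]
      refine Finset.sum_le_sum fun w _ => ?_
      haveI := w.2.finite
      exact Module.finrank_pos
    let e := (Fintype.equivFin {w : NV C K // w.OverG (T / algebraMap C K (s n))}).toEmbedding.trans
      (Fin.castLEEmb hcard)
    have hsurj := Function.invFun_surjective e.injective
    refine ⟨fun j => (Function.invFun e j).1, fun _ => ⟨fun j => (Function.invFun e j).2, ?_⟩⟩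
    intro w' hw'
    obtain ⟨j, hj⟩ := hsurj ⟨w', hw'⟩
    exact ⟨j, (congrArg Subtype.val hj).symm⟩
  choose g hg using key
  refine ⟨fun j n => g n j, ?_, ?_⟩
  · filter_upwards [hs1] with n hn
    exact (hg n (by intro h; rw [h, norm_zero] at hn; linarith)).1
  · filter_upwards [hs1] with n hn
    exact (hg n (by intro h; rw [h, norm_zero] at hn; linarith)).2

end enum

/-! ## The residue degrees -/

section deg

variable {C K : Type*} [NontriviallyNormedField C] [IsUltrametricDist C] [IsAlgClosed C]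
  [Field K] [Algebra C K] {ι : Type*} {U : Ultrafilter ι} {W : ι → NV C K} {T : K} {s : ι → C}

/-- near `(w, x)` every function is a constant times a power of a uniformizer -/
theorem Spz.exists_unit {w : NV C K} {x : Plk (kC C) (kap w)} [CFF (kC C) (kap w)]
    (hx : Spz U W w x) {h : K} (hh : w h = 1) (ho : ord x (w.red h) = 0) :
    ∃ c : C, ‖c‖ = 1 ∧ ∀ᶠ n in (U : Filter ι), W n (h - algebraMap C K c) < 1 := by
  have h0 : w.red h ≠ 0 := NV.red_ne_zero hh
  obtain ⟨a, ha⟩ := exists_cst x (z := w.red h) ((mem_iff_ord x _).2 (Or.inr ho.ge))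
  obtain ⟨c, hc, rfl⟩ := cred_surj a
  have hc' : w (algebraMap C K c) ≤ 1 := by rwa [w.ext']
  have h1 : w.red (h - algebraMap C K c) ∈ Mge x 1 := by
    rw [NV.red_sub hh.le hc', NV.red_algebraMap hc]
    rcases ha with ha | ha
    · left
      rw [ha, sub_self]
    · right
      omega
  refine ⟨c, ?_, hx.lt_one (NV.sub_le hh.le hc') h1⟩
  refine le_antisymm hc ?_
  by_contra hlt
  push Not at hlt
  rw [(cred_eq_zero hc).2 hlt, map_zero, sub_zero] at ha
  rcases ha with ha | ha
  · exact h0 ha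
  · omega

theorem eq_one_of_sub_lt {v : NV C K} {h : K} {c : C} (hc : ‖c‖ = 1)
    (h1 : v (h - algebraMap C K c) < 1) : v h = 1 := by
  have hcv : v (algebraMap C K c) = 1 := by rw [v.ext', hc]
  apply le_antisymm
  · have := NV.add_le h1.le hcv.le
    rwa [sub_add_cancel] at this
  · by_contra hlt
    push Not at hlt
    have h2 : v (h - (h - algebraMap C K c)) < 1 := NV.sub_lt hlt h1
    rw [sub_sub_cancel, hcv] at h2
    exact lt_irrefl _ h2

/-- `e_x ≤ f` -/
theorem Spz.le_finrank [FiniteDimensional C⟮T⟯ K] (hv : ∀ r : ℝ, 0 ≤ r → ∃ x : C, ‖x‖ = r)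
    (hs1 : ∀ᶠ n in (U : Filter ι), 1 < ‖s n‖)
    (hW : ∀ᶠ n in (U : Filter ι), (W n).OverG (T / algebraMap C K (s n)))
    {w : NV C K} (hw : w.OverG T) {x : Plk (kC C) (kap w)} [CFF (kC C) (kap w)]
    (hspz : Spz U W w x) {e : ℕ} (he : ord x (w.red T) = -(e : ℤ)) :
    ∀ᶠ n in (U : Filter ι), e ≤ Module.finrank
      (kC C)⟮(W n).red (T / algebraMap C K (s n))⟯ (kap (W n)) := by
  obtain ⟨ζ, hζ0, hζ⟩ := exists_unif x
  obtain ⟨z, hz1, rfl⟩ := NV.red_surj ζ
  have hz : w z = 1 := by
    refine le_antisymm hz1 ?_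
    by_contra hlt
    push Not at hlt
    exact hζ0 (NV.red_of_lt hlt)
  have hT1 := hw.apply_T
  have hzT : w (z ^ e * T) = 1 := by rw [map_mul, map_pow, hz, hT1, one_pow, one_mul]
  have hTne : w.red T ≠ 0 := NV.red_ne_zero hT1
  have hord : ord x (w.red (z ^ e * T)) = 0 := by
    rw [NV.red_mul (NV.pow_le_one' hz1 e) hT1.le, NV.red_pow hz1,
      ord_mul x (pow_ne_zero _ hζ0) hTne, ord_pow, hζ, he]
    ring
  obtain ⟨c, hc, hcn⟩ := hspz.exists_unit hzT hord
  have hz0 : z ≠ 0 := by
    rintro rfl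
    rw [map_zero] at hz
    exact zero_ne_one hz
  filter_upwards [hs1, hW, hcn] with n hn1 hn2 hn3
  have hsn : s n ≠ 0 := by
    intro h
    rw [h, norm_zero] at hn1
    linarith
  have hsK : algebraMap C K (s n) ≠ 0 := by rwa [Ne, map_eq_zero]
  haveI := finite_div (T := T) hsn
  haveI := hn2.cff
  set v := W n with hv'
  obtain ⟨a, ha⟩ := hv (v z) (v.av.nonneg z)
  have hvz : v z ≠ 0 := v.av.ne_zero hz0
  have ha0 : a ≠ 0 := by
    intro h
    rw [h, norm_zero] at ha
    exact hvz ha.symm
  have haK : algebraMap C K a ≠ 0 := by rwa [Ne, map_eq_zero]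
  have hvz' : v (z / algebraMap C K a) = 1 := by
    rw [map_div₀, v.ext', ha, div_self hvz]
  have hzT' : v (z ^ e * T) = 1 := eq_one_of_sub_lt hc hn3
  have hτ := hn2.apply_T
  have hprod : ‖a ^ e * s n‖ = 1 := by
    have h1 : z ^ e * T = algebraMap C K (a ^ e * s n) *
        ((z / algebraMap C K a) ^ e * (T / algebraMap C K (s n))) := by
      rw [map_mul, map_pow, div_pow]
      field_simp
    rw [h1, map_mul v.av, map_mul v.av, map_pow v.av, hvz', hτ, v.ext', one_pow, one_mul,
      mul_one] at hzT'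
    exact hzT'
  -- the relation in the residue field
  have hcc : ‖c * (a ^ e * s n)⁻¹‖ = 1 := by
    rw [norm_mul, norm_inv, hc, hprod, inv_one, one_mul]
  have h2 : v.red (z / algebraMap C K a) ^ e * v.red (T / algebraMap C K (s n)) =
      algebraMap (kC C) (kap v) (cred (c * (a ^ e * s n)⁻¹)) := by
    rw [← NV.red_algebraMap hcc.le, ← NV.red_pow hvz'.le, ← NV.red_mul (NV.pow_le_one' hvz'.le e)
      hτ.le, ← sub_eq_zero, ← NV.red_sub (NV.mul_le_one (NV.pow_le_one' hvz'.le e) hτ.le)
      (by rw [v.ext']; exact hcc.le)]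
    refine NV.red_of_lt ?_
    have h3 : (z / algebraMap C K a) ^ e * (T / algebraMap C K (s n)) -
        algebraMap C K (c * (a ^ e * s n)⁻¹) =
        (z ^ e * T - algebraMap C K c) * algebraMap C K (a ^ e * s n)⁻¹ := by
      rw [map_mul, map_inv₀, map_mul, map_pow, div_pow]
      field_simp
    rw [h3, map_mul, v.ext', norm_inv, hprod, inv_one, mul_one]
    exact hn3
  have hnc : ∀ b : kC C, v.red (T / algebraMap C K (s n)) ≠ algebraMap (kC C) (kap v) b :=
    hn2.red_ne
  have hz' : v.red (z / algebraMap C K a) ≠ 0 := NV.red_ne_zero hvz'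
  refine le_finrank_of_pow hnc (c := cred (c * (a ^ e * s n)⁻¹))
    (z := (v.red (z / algebraMap C K a))⁻¹) ?_
  rw [← h2, inv_pow]
  field_simp

theorem Spz.congr {W' : ι → NV C K} {w : NV C K} {x : Plk (kC C) (kap w)} (hx : Spz U W w x)
    (h : ∀ᶠ n in (U : Filter ι), W n = W' n) : Spz U W' w x := by
  refine ⟨fun a => (hx.conv a).congr' ?_, fun a ha => (hx.reg a ha).trans ?_⟩
  · filter_upwards [h] with n hn
    rw [hn]
  · refine eventually_congr ?_
    filter_upwards [h] with n hn
    rw [hn]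

/-- **(L3)**: near a simple pole `(w, x)` of the residue of `T` there is a family of absolute
values over the Gauss norms of `T / s n` of residue degree one. -/
theorem exists_branch [FiniteDimensional C⟮T⟯ K] (hv : ∀ r : ℝ, 0 ≤ r → ∃ x : C, ‖x‖ = r)
    (hsum : ∑ᶠ w : {w : NV C K // w.OverG T}, Module.finrank (kC C)⟮w.1.red T⟯ (kap w.1) =
      Module.finrank C⟮T⟯ K)
    (hs1 : ∀ᶠ n in (U : Filter ι), 1 < ‖s n‖) (hs : Tendsto (fun n => ‖s n‖) U (𝓝 1))
    {w : NV C K} (hw : w.OverG T) {x : Plk (kC C) (kap w)} [CFF (kC C) (kap w)]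
    (hx : ord x (w.red T) = -1) :
    ∃ W : ι → NV C K, Spz U W w x ∧
      (∀ᶠ n in (U : Filter ι), (W n).OverG (T / algebraMap C K (s n))) ∧
      ∀ᶠ n in (U : Filter ι),
        Module.finrank (kC C)⟮(W n).red (T / algebraMap C K (s n))⟯ (kap (W n)) = 1 := by
  classical
  have hT : Transcendental C T := hw.transc
  obtain ⟨G, hG, hGall⟩ := exists_enum (U := U) hT hs1
  haveI : Nonempty (Fin (Module.finrank C⟮T⟯ K)) := ⟨⟨0, Module.finrank_pos⟩⟩
  haveI hcff : ∀ w : {w : NV C K // w.OverG T}, CFF (kC C) (kap w.1) := fun w => w.2.cff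
  haveI : ∀ w : {w : NV C K // w.OverG T},
      Finite {x : Plk (kC C) (kap w.1) // w.1.red T ∉ x.1} := fun w => finite_poles w.2.red_ne
  let I := Σ w : {w : NV C K // w.OverG T}, {x : Plk (kC C) (kap w.1) // w.1.red T ∉ x.1}
  letI : Fintype {w : NV C K // w.OverG T} := Fintype.ofFinite _
  letI : ∀ w : {w : NV C K // w.OverG T},
      Fintype {x : Plk (kC C) (kap w.1) // w.1.red T ∉ x.1} := fun w => Fintype.ofFinite _
  let e : I → ℕ := fun i => (-ord i.2.1 (i.1.1.red T)).toNat
  have hesum : ∑ i : I, e i = Module.finrank C⟮T⟯ K := by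
    rw [← hsum, finsum_eq_sum_of_fintype, Fintype.sum_sigma]
    refine Finset.sum_congr rfl fun w _ => ?_
    exact sum_poles w.2.red_ne
  -- the families
  have hfam : ∀ i : I, ∃ j, Spz U (G j) i.1.1 i.2.1 := fun i =>
    exists_spz_of_place hs1 hs G hG hGall i.1.2 i.2.1 i.2.2
  choose j hj using hfam
  have hle : ∀ᶠ n in (U : Filter ι), ∀ i : I, e i ≤ Module.finrank
      (kC C)⟮(G (j i) n).red (T / algebraMap C K (s n))⟯ (kap (G (j i) n)) := by
    rw [Filter.eventually_all]
    intro i
    refine Spz.le_finrank hv hs1 (by filter_upwards [hG] with n hn using hn (j i)) i.1.2 (hj i) ?_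
    have h1 : ord i.2.1 (i.1.1.red T) < 0 := by
      have := i.2.2
      rw [mem_iff_ord] at this
      push Not at this
      exact this.2
    change ord i.2.1 (i.1.1.red T) = -((-ord i.2.1 (i.1.1.red T)).toNat : ℤ)
    omega
  have hinj : ∀ᶠ n in (U : Filter ι), ∀ i i' : I, i ≠ i' → G (j i) n ≠ G (j i') n := by
    rw [Filter.eventually_all]
    intro i
    rw [Filter.eventually_all]
    intro i'
    by_cases hii : i = i'
    · exact Eventually.of_forall fun n h => absurd hii h
    have h1 : ¬ ∀ᶠ n in (U : Filter ι), G (j i) n = G (j i') n := by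
      intro h
      have h2 := (hj i).congr h
      have h3 := h2.unique (hj i')
      apply hii
      obtain ⟨⟨w1, hw1⟩, ⟨x1, hx1⟩⟩ := i
      obtain ⟨⟨w2, hw2⟩, ⟨x2, hx2⟩⟩ := i'
      simp only [Sigma.mk.injEq] at h3
      obtain ⟨h4, h5⟩ := h3
      subst h4
      rw [heq_eq_eq] at h5
      subst h5
      rfl
    rw [← Ultrafilter.eventually_not] at h1
    filter_upwards [h1] with n hn _
    exact hn
  have heq : ∀ᶠ n in (U : Filter ι), ∀ i : I, Module.finrank
      (kC C)⟮(G (j i) n).red (T / algebraMap C K (s n))⟯ (kap (G (j i) n)) = e i := by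
    filter_upwards [hs1, hG, hle, hinj] with n hn1 hn2 hn3 hn4
    have hsn : s n ≠ 0 := by
      intro h
      rw [h, norm_zero] at hn1
      linarith
    haveI := finite_div (T := T) hsn
    have h1 := sum_finrank_le (T := T / algebraMap C K (s n)) (fun i : I => G (j i) n)
      (fun i i' h => by
        by_contra hne
        exact hn4 i i' hne h) (fun i => hn2 (j i))
    rw [finrank_div hsn, ← hesum] at h1
    have h2 := (Finset.sum_eq_sum_iff_of_le fun i _ => hn3 i).1
      (le_antisymm (Finset.sum_le_sum fun i _ => hn3 i) h1)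
    intro i
    exact (h2 i (Finset.mem_univ i)).symm
  have hxT : w.red T ∉ x.1 := by
    rw [mem_iff_ord, hx]
    rintro (h | h)
    · rw [h, ord_zero] at hx
      omega
    · omega
  let i₀ : I := ⟨⟨w, hw⟩, ⟨x, hxT⟩⟩
  refine ⟨G (j i₀), hj i₀, ?_, ?_⟩
  · filter_upwards [hG] with n hn using hn _
  · filter_upwards [heq] with n hn
    rw [hn i₀]
    change (-ord x (w.red T)).toNat = 1
    rw [hx]
    rfl

end deg

end

end P025H651
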