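import Vale.Agent.P025.R2.H651.Lim
import Vale.Agent.P025.R2.H458.Val

/-!
# P025 G-BRANCH (helper651): every place is the limit of a family

`w` over the Gauss norm of `T`, `x` a place of `kap w` where the residue of `T` has a pole.
If `G j n`, `j : Fin N`, are all absolute values over the Gauss norm of `T / s n`, then one of the
families `G j` defines the place `(w, x)`.
-/

set_option linter.unusedSectionVars false
set_option linter.style.haveILetI false

open Polynomial IntermediateField Filter Topology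

namespace P025H651

open P025H373 P025H746 Vale.Agent.P019P

noncomputable section

/-! ## Function fields -/

section orders

variable {k F : Type*} [Field k] [Field F] [Algebra k F] [CFF k F]

/-- the order of a polynomial in an element with a pole -/
theorem ord_aeval_pole (P : Plk k F) {τ : F} (hτ : ord P τ < 0) {q : k[X]} (hq : q ≠ 0) :
    aeval τ q ≠ 0 ∧ ord P (aeval τ q) = q.natDegree * ord P τ := by
  have hτ0 : τ ≠ 0 := by
    rintro rfl
    rw [ord_zero] at hτ
    exact lt_irrefl _ hτ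
  rw [aeval_eq_sum_range]
  have hlc : algebraMap k F (q.coeff q.natDegree) ≠ 0 := by
    rw [Ne, map_eq_zero]
    exact leadingCoeff_ne_zero.2 hq
  have hlead : q.coeff q.natDegree • τ ^ q.natDegree ≠ 0 := by
    rw [Algebra.smul_def]
    exact mul_ne_zero hlc (pow_ne_zero _ hτ0)
  have hord : ord P (q.coeff q.natDegree • τ ^ q.natDegree) = q.natDegree * ord P τ := by
    rw [Algebra.smul_def, ord_mul P hlc (pow_ne_zero _ hτ0), ord_const, ord_pow, zero_add]
  have h := ord_sum_of_lt (P := P) (s := Finset.range (q.natDegree + 1))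
    (f := fun i => q.coeff i • τ ^ i) (i := q.natDegree) (by simp) hlead (by
      intro j hj hj'
      rw [Finset.mem_range] at hj
      refine Submodule.smul_mem _ _ (Or.inr ?_)
      rw [hord, ord_pow]
      have h1 : (j : ℤ) + 1 ≤ q.natDegree := by omega
      nlinarith)
  rw [hord] at h
  exact h

/-- valuation rings are integrally closed -/
theorem mem_of_monic (V : ValuationSubring F) {p : F[X]} (hp : p.Monic)
    (hc : ∀ i, p.coeff i ∈ V) {a : F} (ha : p.eval a = 0) : a ∈ V := by
  by_contra hcon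
  have h1 : 1 < V.valuation a := by
    rw [← not_le, ValuationSubring.valuation_le_one_iff]
    exact hcon
  have hd : p.natDegree ≠ 0 := by
    intro hd
    rw [eq_one_of_monic_natDegree_zero hp hd] at ha
    simp at ha
  rw [eval_eq_sum_range, Finset.sum_range_succ, hp.coeff_natDegree, one_mul] at ha
  have h2 : a ^ p.natDegree = -∑ i ∈ Finset.range p.natDegree, p.coeff i * a ^ i := by
    linear_combination ha
  have h3 : V.valuation (a ^ p.natDegree) < V.valuation a ^ p.natDegree := by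
    conv_lhs => rw [h2]
    rw [Valuation.map_neg]
    refine Valuation.map_sum_lt _ ?_ ?_
    · exact (pow_pos (lt_trans zero_lt_one h1) _).ne'
    · intro i hi
      rw [Finset.mem_range] at hi
      rw [map_mul, map_pow]
      calc V.valuation (p.coeff i) * V.valuation a ^ i ≤ 1 * V.valuation a ^ i :=
            mul_le_mul_left ((ValuationSubring.valuation_le_one_iff _ _).2 (hc i)) _
        _ = V.valuation a ^ i := one_mul _
        _ < V.valuation a ^ p.natDegree := pow_lt_pow_right₀ h1 hi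
  rw [map_pow] at h3
  exact lt_irrefl _ h3

end orders

/-! ## Transfer of regularity at infinity for elements of `C(T)` -/

section transfer

variable {C K : Type*} [NontriviallyNormedField C] [IsUltrametricDist C] [IsAlgClosed C]
  [Field K] [Algebra C K] {T : K}

/-- elements of `C(T)` in lowest form -/
theorem exists_form (c : C⟮T⟯) : ∃ P Q : C[X], gp Q = 1 ∧ (c : K) = aeval T P / aeval T Q := by
  obtain ⟨P, Q, hPQ⟩ := (mem_adjoin_simple_iff C (c : K)).1 c.2
  by_cases hQ : Q = 0
  · refine ⟨0, 1, gp_one, ?_⟩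
    rw [hPQ, hQ]
    simp
  obtain ⟨i, hi⟩ := exists_coeff_eq Q
  have h0 : Q.coeff i ≠ 0 := by
    intro h
    rw [h, norm_zero] at hi
    exact (gp_pos hQ).ne hi
  refine ⟨Polynomial.C (Q.coeff i)⁻¹ * P, Polynomial.C (Q.coeff i)⁻¹ * Q, ?_, ?_⟩
  · rw [gp_mul, gp_C, norm_inv, hi, inv_mul_cancel₀ (gp_pos hQ).ne']
  · rw [hPQ, map_mul, map_mul, aeval_C, mul_div_mul_left]
    rw [Ne, map_eq_zero]
    exact inv_ne_zero h0

theorem transfer {w w' : NV C K} (hw : w.OverG T) (hw' : w'.OverG T)
    [CFF (kC C) (kap w)] [CFF (kC C) (kap w')]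
    (x : Plk (kC C) (kap w)) (x' : Plk (kC C) (kap w')) (hx : w.red T ∉ x.1)
    (hx' : w'.red T ∉ x'.1) (c : C⟮T⟯) (h1 : w' (c : K) ≤ 1) (h2 : w'.red (c : K) ∈ x'.1) :
    w (c : K) ≤ 1 ∧ w.red (c : K) ∈ x.1 := by
  obtain ⟨P, Q, hQ, hc⟩ := exists_form c
  have hval : ∀ v : NV C K, v.OverG T → v (c : K) = gp P := by
    intro v hv
    rw [hc, map_div₀, hv, hv, hQ, div_one]
  have hP : gp P ≤ 1 := by rwa [hval w' hw'] at h1
  have hQ' : pred Q ≠ 0 := by
    rw [Ne, pred_eq_zero hQ.le, hQ]
    exact lt_irrefl _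
  have hred : ∀ v : NV C K, v.OverG T →
      v.red (c : K) = aeval (v.red T) (pred P) / aeval (v.red T) (pred Q) := by
    intro v hv
    have hTle := hv.apply_T.le
    have hQv : v (aeval T Q) = 1 := by rw [hv, hQ]
    rw [hc, div_eq_mul_inv, NV.red_mul (NV.aeval_le hTle hP) (by rw [map_inv₀, hQv, inv_one]),
      NV.red_inv hQv, NV.red_aeval hTle hP, NV.red_aeval hTle hQ.le, div_eq_mul_inv]
  have hpole : ∀ (v : NV C K) [CFF (kC C) (kap v)] (y : Plk (kC C) (kap v)), v.red T ∉ y.1 →
      ord y (v.red T) < 0 := by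
    intro v _ y hy
    rw [mem_iff_ord] at hy
    push Not at hy
    exact hy.2
  refine ⟨by rwa [hval w hw], ?_⟩
  rw [hred w hw, mem_iff_ord]
  rw [hred w' hw', mem_iff_ord] at h2
  by_cases hP0 : pred P = 0
  · left
    rw [hP0, map_zero, zero_div]
  right
  obtain ⟨a1, a2⟩ := ord_aeval_pole x' (hpole w' x' hx') hP0
  obtain ⟨b1, b2⟩ := ord_aeval_pole x' (hpole w' x' hx') hQ'
  obtain ⟨a3, a4⟩ := ord_aeval_pole x (hpole w x hx) hP0
  obtain ⟨b3, b4⟩ := ord_aeval_pole x (hpole w x hx) hQ'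
  have h3 : 0 ≤ ord x' (aeval (w'.red T) (pred P) / aeval (w'.red T) (pred Q)) := by
    rcases h2 with h2 | h2
    · exact absurd h2 (div_ne_zero a1 b1)
    · exact h2
  rw [div_eq_mul_inv, ord_mul _ a1 (inv_ne_zero b1), ord_inv, a2, b2] at h3
  rw [div_eq_mul_inv, ord_mul _ a3 (inv_ne_zero b3), ord_inv, a4, b4]
  have h4 := hpole w' x' hx'
  have h5 := hpole w x hx
  have h6 : ((pred P).natDegree : ℤ) ≤ (pred Q).natDegree := by
    by_contra hcon
    push Not at hcon
    have h7 : ((pred P).natDegree - (pred Q).natDegree : ℤ) * ord x' (w'.red T) < 0 :=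
      mul_neg_of_pos_of_neg (by linarith) h4
    nlinarith
  nlinarith

end transfer

/-! ## Existence of the family -/

section fam

variable {C K : Type*} [NontriviallyNormedField C] [IsUltrametricDist C] [IsAlgClosed C]
  [Field K] [Algebra C K] {ι : Type*} {U : Ultrafilter ι} {T : K} {s : ι → C}

theorem adjoin_div_eq {s : C} (hs : s ≠ 0) (T : K) : C⟮T / algebraMap C K s⟯ = C⟮T⟯ := by
  apply le_antisymm
  · rw [adjoin_simple_le_iff]
    exact div_mem (mem_adjoin_simple_self C T) (IntermediateField.algebraMap_mem _ s)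
  · rw [adjoin_simple_le_iff]
    have h1 : T = T / algebraMap C K s * algebraMap C K s := by
      rw [div_mul_cancel₀]
      rw [Ne, map_eq_zero]
      exact hs
    have h2 := mul_mem (mem_adjoin_simple_self C (T / algebraMap C K s))
      (IntermediateField.algebraMap_mem C⟮T / algebraMap C K s⟯ s)
    rwa [← h1] at h2

/-- an element of `kap w` with a pole at `x` only (among the poles of `τ`) -/
theorem exists_pole_only {k F : Type*} [Field k] [Field F] [Algebra k F] [CFF k F] (x : Plk k F)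
    {τ : F} (hτ : ord x τ < 0) :
    ∃ a : F, a ∉ x.1 ∧ ∀ x' : Plk k F, τ ∉ x'.1 → x' ≠ x → a ∈ x'.1 := by
  classical
  have hτ0 : τ ≠ 0 := by
    rintro rfl
    rw [ord_zero] at hτ
    exact lt_irrefl _ hτ
  have hfin := dv_finite (k := k) hτ0
  obtain ⟨a, ha0, ha⟩ := exists_ord_eq hfin.toFinset (fun P => if P = x then -1 else 0)
  refine ⟨a, ?_, ?_⟩
  · have h1 := ha x (by rw [Set.Finite.mem_toFinset]; exact hτ.ne)
    rw [if_pos rfl] at h1
    rw [mem_iff_ord]
    rintro (h | h)
    · exact ha0 h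
    · omega
  · intro x' hx' hne
    rw [mem_iff_ord] at hx' ⊢
    push Not at hx'
    have h1 := ha x' (by rw [Set.Finite.mem_toFinset]; exact hx'.2.ne)
    rw [if_neg hne] at h1
    exact Or.inr h1.ge

/-- **(L2)** -/
theorem exists_spz_of_place [FiniteDimensional C⟮T⟯ K]
    (hs1 : ∀ᶠ n in (U : Filter ι), 1 < ‖s n‖) (hs : Tendsto (fun n => ‖s n‖) U (𝓝 1))
    {J : Type*} [Finite J] [Nonempty J] (G : J → ι → NV C K)
    (hG : ∀ᶠ n in (U : Filter ι), ∀ j, (G j n).OverG (T / algebraMap C K (s n)))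
    (hGall : ∀ᶠ n in (U : Filter ι), ∀ w' : NV C K, w'.OverG (T / algebraMap C K (s n)) →
      ∃ j, w' = G j n)
    {w : NV C K} (hw : w.OverG T) (x : Plk (kC C) (kap w)) (hx : w.red T ∉ x.1) :
    ∃ j, Spz U (G j) w x := by
  classical
  by_contra hcon
  push Not at hcon
  haveI := hw.cff
  have hlim : ∀ j, ∃ w' : NV C K, w'.OverG T ∧ ∃ x' : Plk (kC C) (kap w'), w'.red T ∉ x'.1 ∧
      Spz U (G j) w' x' := fun j =>
    exists_spz hs1 hs (by filter_upwards [hG] with n hn using hn j)
  choose v hv y hy hspz using hlim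
  -- a function with a pole only at `(w, x)`
  have hτ : ord x (w.red T) < 0 := by
    rw [mem_iff_ord] at hx
    push Not at hx
    exact hx.2
  obtain ⟨a, ha, ha'⟩ := exists_pole_only x hτ
  obtain ⟨h₀, hh₀, rfl⟩ := NV.red_surj a
  obtain ⟨h, hh1, hh2⟩ := P025H458.exists_approx
    (fun i : {w' : NV C K // w'.OverG T} => i.1.av) (fun i => i.1.na) (fun i => i.1.ext')
    (fun i j hij => Subtype.ext (NV.ext hij)) ⟨w, hw⟩ h₀ one_pos
  have hh3 : w (h - h₀) < 1 := hh1
  have hh4 : ∀ w' : NV C K, w'.OverG T → w' ≠ w → w' h < 1 := by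
    intro w' hw' hne
    exact hh2 ⟨w', hw'⟩ (fun h => hne (congrArg Subtype.val h))
  have hwh : w h ≤ 1 := by
    have := NV.add_le hh3.le hh₀
    rwa [sub_add_cancel] at this
  have hred : w.red h = w.red h₀ := by
    rw [← sub_eq_zero, ← NV.red_sub hwh hh₀]
    exact NV.red_of_lt hh3
  -- regular at all `(v j, y j)`
  have hreg : ∀ (w' : NV C K) (hw' : w'.OverG T) (x' : Plk (kC C) (kap w')), w'.red T ∉ x'.1 →
      (∃ j, Spz U (G j) w' x') → w' h ≤ 1 ∧ w'.red h ∈ x'.1 := by
    intro w' hw' x' hx' hj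
    by_cases he : w' = w
    · subst he
      refine ⟨hwh, ?_⟩
      rw [hred]
      refine ha' x' hx' ?_
      rintro rfl
      obtain ⟨j, hj⟩ := hj
      exact hcon j hj
    · have h1 := hh4 w' hw' he
      refine ⟨h1.le, ?_⟩
      rw [NV.red_of_lt h1]
      exact zero_mem _
  have hle : ∀ᶠ n in (U : Filter ι), ∀ j, G j n h ≤ 1 := by
    rw [Filter.eventually_all]
    intro j
    obtain ⟨h1, h2⟩ := hreg (v j) (hv j) (y j) (hy j) ⟨j, hspz j⟩
    exact ((hspz j).reg h h1).1 h2
  -- the coefficients of the minimal polynomial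
  set p : C⟮T⟯[X] := minpoly C⟮T⟯ h with hp
  obtain ⟨j₀⟩ := (inferInstance : Nonempty J)
  have hcoef : ∀ᶠ n in (U : Filter ι), ∀ i, G j₀ n ((p.coeff i : C⟮T⟯) : K) ≤ 1 := by
    filter_upwards [hs1, hG, hGall, hle] with n hn1 hn2 hn3 hn4 i
    have hsn : s n ≠ 0 := by
      intro h
      rw [h, norm_zero] at hn1
      linarith
    have hmem : ∀ P : C[X], aeval (T / algebraMap C K (s n)) P ∈ C⟮T⟯ := by
      intro P
      rw [← adjoin_div_eq hsn T]
      exact (mem_adjoin_simple_iff C _).2 ⟨P, 1, by rw [map_one, div_one]⟩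
    let g : AbsoluteValue C⟮T⟯ ℝ := (G j₀ n).av.comp (algebraMap C⟮T⟯ K).injective
    have hgval : ∀ f : C⟮T⟯, g f = G j₀ n (f : K) := fun f => rfl
    refine P025H458.minpoly_coeff_le (C := C) g (fun a b => ?_) (fun c => ?_) (fun f => ?_) h
      (fun w' hw'1 hw'2 => ?_) i
    · rw [hgval, hgval, hgval]
      exact (G j₀ n).na _ _
    · rw [hgval]
      exact (G j₀ n).ext' c
    · have h1 : (f : K) ∈ C⟮T / algebraMap C K (s n)⟯ := by
        rw [adjoin_div_eq hsn T]
        exact f.2
      obtain ⟨P, Q, hPQ⟩ := (mem_adjoin_simple_iff C (f : K)).1 h1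
      obtain ⟨a, ha⟩ := exists_coeff_eq P
      obtain ⟨b, hb⟩ := exists_coeff_eq Q
      refine ⟨P.coeff a / Q.coeff b, ?_⟩
      rw [hgval, hPQ, map_div₀, hn2 j₀, hn2 j₀, norm_div, ha, hb]
    · have hext : ∀ c : C, w' (algebraMap C K c) = ‖c‖ := by
        intro c
        have := hw'2 (algebraMap C C⟮T⟯ c)
        rw [hgval] at this
        exact this.trans ((G j₀ n).ext' c)
      obtain ⟨j, hj⟩ := hn3 ⟨w', hw'1, hext⟩ (by
        intro P
        have := hw'2 ⟨_, hmem P⟩
        rw [hgval] at this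
        exact this.trans (hn2 j₀ P))
      have h2 := hn4 j
      rw [← hj] at h2
      exact h2
  -- transfer to `(w, x)`
  haveI := (hv j₀).cff
  have hcoef' : ∀ i, w ((p.coeff i : C⟮T⟯) : K) ≤ 1 ∧ w.red ((p.coeff i : C⟮T⟯) : K) ∈ x.1 := by
    intro i
    have h1 : v j₀ ((p.coeff i : C⟮T⟯) : K) ≤ 1 :=
      le_of_tendsto ((hspz j₀).conv _) (by filter_upwards [hcoef] with n hn using hn i)
    refine transfer hw (hv j₀) x (y j₀) hx (hy j₀) _ h1 ?_
    rw [(hspz j₀).reg _ h1]
    filter_upwards [hcoef] with n hn using hn i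
  -- `red h` is integral at `x`
  refine ha ?_
  rw [← hred]
  have hint : IsIntegral C⟮T⟯ h := Algebra.IsIntegral.isIntegral h
  have hroot := minpoly.aeval C⟮T⟯ h
  rw [← hp, aeval_eq_sum_range] at hroot
  let q : (kap w)[X] := ∑ i ∈ Finset.range (p.natDegree + 1),
    monomial i (w.red ((p.coeff i : C⟮T⟯) : K))
  have hqc : ∀ i, q.coeff i = w.red ((p.coeff i : C⟮T⟯) : K) := by
    intro i
    rw [finsetSum_coeff]
    simp only [coeff_monomial]
    rw [Finset.sum_ite_eq' (Finset.range (p.natDegree + 1)) i]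
    split_ifs with hi
    · rfl
    · rw [coeff_eq_zero_of_natDegree_lt (by rw [Finset.mem_range] at hi; omega)]
      exact NV.red_zero.symm
  have hpm : p.coeff p.natDegree = 1 := (minpoly.monic hint).coeff_natDegree
  have hqm : q.Monic := by
    refine monic_of_natDegree_le_of_coeff_eq_one p.natDegree ?_ ?_
    · refine natDegree_le_iff_coeff_eq_zero.2 fun i hi => ?_
      rw [hqc, coeff_eq_zero_of_natDegree_lt hi]
      exact NV.red_zero
    · rw [hqc, hpm]
      exact NV.red_one
  refine mem_of_monic x.1 hqm (fun i => ?_) (a := w.red h) ?_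
  · rw [hqc]
    exact (hcoef' i).2
  · rw [eval_finsetSum]
    simp only [eval_monomial]
    have h1 := congrArg w.red hroot
    rw [NV.red_zero, NV.red_sum] at h1
    · rw [← h1]
      refine Finset.sum_congr rfl fun i _ => ?_
      have e : algebraMap C⟮T⟯ K (p.coeff i) = ((p.coeff i : C⟮T⟯) : K) := rfl
      rw [Algebra.smul_def, e, NV.red_mul (hcoef' i).1 (NV.pow_le_one' hwh i), NV.red_pow hwh]
    · intro i _
      rw [Algebra.smul_def]
      exact NV.mul_le_one (hcoef' i).1 (NV.pow_le_one' hwh i)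

end fam

end

end P025H651
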