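import Vale.Agent.P025.R2.H746.Kap

/-!
# P025 G-BRANCH (helper651): limits of absolute values along an ultrafilter

`W n` an absolute value over the Gauss norm of `T / s n`, `1 < |s n|`, `|s n| → 1` along the
ultrafilter `U`. The limit `w` is an absolute value over the Gauss norm of `T`, and
`{h | eventually W n h ≤ 1}` is a valuation ring inside the one of `w`; its image in `kap w` is a
place `x` at which the residue of `T` has a pole.
-/

set_option linter.unusedSectionVars false

open Polynomial IntermediateField Filter Topology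

namespace P025H651

open P025H373 P025H746 Vale.Agent.P019P

noncomputable section

variable {C K : Type*} [NontriviallyNormedField C] [IsUltrametricDist C] [Field K] [Algebra C K]
  {ι : Type*}

/-! ## The limit of a bounded family -/

/-- bounded families of absolute values converge along ultrafilters -/
theorem exists_lim (U : Ultrafilter ι) (W : ι → NV C K)
    (hb : ∀ h : K, ∃ B : ℝ, ∀ᶠ n in (U : Filter ι), W n h ≤ B) :
    ∃ w : NV C K, ∀ h, Tendsto (fun n => W n h) U (𝓝 (w h)) := by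
  classical
  have h1 : ∀ h : K, ∃ r : ℝ, Tendsto (fun n => W n h) U (𝓝 r) := by
    intro h
    obtain ⟨B, hB⟩ := hb h
    have h2 : Set.Icc (0 : ℝ) B ∈ U.map (fun n => W n h) := by
      rw [Ultrafilter.mem_map]
      filter_upwards [hB] with n hn
      exact ⟨(W n).av.nonneg _, hn⟩
    obtain ⟨r, -, hr⟩ := isCompact_Icc.ultrafilter_le_nhds' _ h2
    exact ⟨r, hr⟩
  choose r hr using h1
  have hnn : ∀ h, 0 ≤ r h := fun h =>
    ge_of_tendsto (hr h) (Eventually.of_forall fun n => (W n).av.nonneg _)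
  have hmul : ∀ a b, r (a * b) = r a * r b := by
    intro a b
    refine tendsto_nhds_unique (hr (a * b)) ?_
    have := (hr a).mul (hr b)
    refine this.congr fun n => ?_
    rw [map_mul]
  have hmax : ∀ a b, r (a + b) ≤ max (r a) (r b) := by
    intro a b
    refine le_of_tendsto_of_tendsto (hr (a + b)) ((hr a).max (hr b)) ?_
    exact Eventually.of_forall fun n => (W n).na a b
  have hext : ∀ c : C, r (algebraMap C K c) = ‖c‖ := by
    intro c
    refine tendsto_nhds_unique (hr _) ?_
    refine tendsto_const_nhds.congr fun n => ?_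
    rw [(W n).ext']
  have hone : r 1 = 1 := by
    have := hext 1
    rwa [map_one, norm_one] at this
  have hzero : r 0 = 0 := by
    have := hext 0
    rwa [map_zero, norm_zero] at this
  refine ⟨⟨⟨⟨r, hmul⟩, hnn, ?_, ?_⟩, hmax, hext⟩, hr⟩
  · intro a
    refine ⟨fun h => ?_, fun h => ?_⟩
    · by_contra ha
      have h2 := hmul a a⁻¹
      rw [mul_inv_cancel₀ ha, hone] at h2
      change r a = 0 at h
      rw [h, zero_mul] at h2
      exact one_ne_zero h2
    · change r a = 0
      rw [h, hzero]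
  · intro a b
    exact (hmax a b).trans (max_le_add_of_nonneg (hnn a) (hnn b))

/-! ## Boundedness -/

/-- the roots of a monic polynomial -/
theorem le_of_monic (w : NV C K) {p : K[X]} (hp : p.Monic) {B : ℝ} (hB : 1 ≤ B)
    (hc : ∀ i, w (p.coeff i) ≤ B) {h : K} (hh : p.eval h = 0) : w h ≤ B := by
  by_contra hlt
  push Not at hlt
  have hd : p.natDegree ≠ 0 := by
    intro hd
    rw [eq_one_of_monic_natDegree_zero hp hd] at hh
    simp at hh
  have h0 : 0 < w h := by linarith
  rw [eval_eq_sum_range, Finset.sum_range_succ, hp.coeff_natDegree, one_mul] at hh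
  have h1 : h ^ p.natDegree = -∑ i ∈ Finset.range p.natDegree, p.coeff i * h ^ i := by
    linear_combination hh
  have h2 : w (h ^ p.natDegree) ≤ B * w h ^ (p.natDegree - 1) := by
    rw [h1, NV.map_neg']
    refine NV.sum_le (by positivity) fun i hi => ?_
    rw [map_mul, map_pow]
    have h3 : w h ^ i ≤ w h ^ (p.natDegree - 1) :=
      pow_le_pow_right₀ (by linarith) (by rw [Finset.mem_range] at hi; omega)
    exact mul_le_mul (hc i) h3 (by positivity) (by linarith)
  rw [map_pow] at h2
  obtain ⟨d, hd'⟩ := Nat.exists_eq_succ_of_ne_zero hd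
  rw [hd', Nat.succ_sub_one, pow_succ, mul_comm] at h2
  have h4 := le_of_mul_le_mul_right h2 (pow_pos h0 d)
  linarith

theorem aeval_div (T : K) {s : C} (hs : s ≠ 0) (P : C[X]) :
    aeval T P = aeval (T / algebraMap C K s) (P.comp (Polynomial.C s * X)) := by
  rw [aeval_comp]
  congr 1
  rw [map_mul, aeval_C, aeval_X, mul_div_cancel₀]
  rw [Ne, map_eq_zero]
  exact hs

theorem W_aeval {w : NV C K} {T : K} {s : C} (hs : s ≠ 0)
    (hw : w.OverG (T / algebraMap C K s)) (P : C[X]) :
    w (aeval T P) = gp (P.comp (Polynomial.C s * X)) := by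
  rw [aeval_div T hs, hw]

theorem gp_comp_le {s : C} (hs : 1 ≤ ‖s‖) (P : C[X]) :
    gp (P.comp (Polynomial.C s * X)) ≤ gp P * ‖s‖ ^ P.natDegree := by
  rw [gp_le_iff]
  intro i
  rw [comp_C_mul_X_coeff, norm_mul, norm_pow]
  by_cases hi : i ≤ P.natDegree
  · exact mul_le_mul (norm_coeff_le P i) (pow_le_pow_right₀ hs hi) (by positivity)
      ((norm_nonneg _).trans (norm_coeff_le P i))
  · rw [coeff_eq_zero_of_natDegree_lt (by omega), norm_zero, zero_mul]
    exact mul_nonneg ((norm_nonneg _).trans (norm_coeff_le P 0)) (by positivity)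

theorem le_gp_comp {s : C} (hs : 1 ≤ ‖s‖) (P : C[X]) :
    gp P ≤ gp (P.comp (Polynomial.C s * X)) := by
  rw [gp_le_iff]
  intro i
  refine le_trans ?_ (norm_coeff_le _ i)
  rw [comp_C_mul_X_coeff, norm_mul, norm_pow]
  exact le_mul_of_one_le_right (norm_nonneg _) (one_le_pow₀ hs)

variable {U : Ultrafilter ι} {W : ι → NV C K} {T : K} {s : ι → C}

theorem tendsto_aeval (hs1 : ∀ᶠ n in (U : Filter ι), 1 < ‖s n‖)
    (hs : Tendsto (fun n => ‖s n‖) U (𝓝 1))
    (hW : ∀ᶠ n in (U : Filter ι), (W n).OverG (T / algebraMap C K (s n))) (P : C[X]) :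
    Tendsto (fun n => W n (aeval T P)) U (𝓝 (gp P)) := by
  have h1 : Tendsto (fun n => gp P * ‖s n‖ ^ P.natDegree) U (𝓝 (gp P)) := by
    have := (hs.pow P.natDegree).const_mul (gp P)
    rwa [one_pow, mul_one] at this
  refine tendsto_of_tendsto_of_tendsto_of_le_of_le' tendsto_const_nhds h1 ?_ ?_
  · filter_upwards [hs1, hW] with n hn hn'
    rw [W_aeval (by rintro h; rw [h, norm_zero] at hn; linarith) hn']
    exact le_gp_comp hn.le P
  · filter_upwards [hs1, hW] with n hn hn'
    rw [W_aeval (by rintro h; rw [h, norm_zero] at hn; linarith) hn']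
    exact gp_comp_le hn.le P

theorem gp_pos {P : C[X]} (hP : P ≠ 0) : 0 < gp P := by
  rcases (gp_nonneg P).lt_or_eq with h | h
  · exact h
  · exact absurd (gp_eq_zero.1 h.symm) hP

theorem bdd_of (hs1 : ∀ᶠ n in (U : Filter ι), 1 < ‖s n‖)
    (hs : Tendsto (fun n => ‖s n‖) U (𝓝 1))
    (hW : ∀ᶠ n in (U : Filter ι), (W n).OverG (T / algebraMap C K (s n)))
    [Algebra.IsAlgebraic C⟮T⟯ K] (h : K) : ∃ B : ℝ, ∀ᶠ n in (U : Filter ι), W n h ≤ B := by
  classical
  have h1 : ∀ c : C⟮T⟯, ∃ B : ℝ, ∀ᶠ n in (U : Filter ι), W n (c : K) ≤ B := by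
    intro c
    obtain ⟨P, Q, hPQ⟩ := (mem_adjoin_simple_iff C (c : K)).1 c.2
    by_cases hQ : Q = 0
    · refine ⟨0, Eventually.of_forall fun n => ?_⟩
      rw [hPQ, hQ, map_zero, div_zero, map_zero]
    · refine ⟨gp P / gp Q + 1, ?_⟩
      have h2 := (tendsto_aeval hs1 hs hW P).div (tendsto_aeval hs1 hs hW Q) (gp_pos hQ).ne'
      filter_upwards [h2.eventually (gt_mem_nhds (lt_add_one (gp P / gp Q)))] with n hn
      rw [hPQ, map_div₀]
      exact hn.le
  choose B hB using h1
  have hint : IsIntegral C⟮T⟯ h := Algebra.IsIntegral.isIntegral h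
  set p : C⟮T⟯[X] := minpoly C⟮T⟯ h with hp
  refine ⟨1 + ∑ i ∈ Finset.range (p.natDegree + 1), |B (p.coeff i)|, ?_⟩
  have h3 : ∀ᶠ n in (U : Filter ι), ∀ i ∈ Finset.range (p.natDegree + 1),
      W n ((p.coeff i : C⟮T⟯) : K) ≤ B (p.coeff i) := by
    rw [Filter.eventually_all_finset]
    intro i _
    exact hB _
  filter_upwards [h3] with n hn
  have hS : 0 ≤ ∑ i ∈ Finset.range (p.natDegree + 1), |B (p.coeff i)| :=
    Finset.sum_nonneg fun _ _ => abs_nonneg _
  refine le_of_monic (W n) (p := p.map (algebraMap C⟮T⟯ K)) ((minpoly.monic hint).map _)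
    (by linarith) (fun i => ?_) ?_
  · rw [coeff_map]
    by_cases hi : i ∈ Finset.range (p.natDegree + 1)
    · have h4 := hn i hi
      have h5 := Finset.single_le_sum (f := fun i => |B (p.coeff i)|)
        (fun _ _ => abs_nonneg _) hi
      have h6 : W n (algebraMap C⟮T⟯ K (p.coeff i)) ≤ B (p.coeff i) := h4
      linarith [le_abs_self (B (p.coeff i))]
    · rw [coeff_eq_zero_of_natDegree_lt (by rw [Finset.mem_range] at hi; omega), map_zero, map_zero]
      linarith
  · rw [eval_map, ← aeval_def]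
    exact minpoly.aeval _ _

/-! ## The valuation ring of the family -/

/-- the place `x` of `kap w` is the one defined by the family `W` along `U` -/
structure Spz (U : Ultrafilter ι) (W : ι → NV C K) (w : NV C K) (x : Plk (kC C) (kap w)) :
    Prop where
  conv : ∀ h : K, Tendsto (fun n => W n h) U (𝓝 (w h))
  reg : ∀ h : K, w h ≤ 1 → (w.red h ∈ x.1 ↔ ∀ᶠ n in (U : Filter ι), W n h ≤ 1)

/-- the place defined by a convergent family -/
theorem exists_place {w : NV C K} (hw : ∀ h : K, Tendsto (fun n => W n h) U (𝓝 (w h)))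
    {T : K} (hT : w T ≤ 1) (hT' : ∀ᶠ n in (U : Filter ι), 1 < W n T) :
    ∃ x : Plk (kC C) (kap w), w.red T ∉ x.1 ∧ Spz U W w x := by
  classical
  -- independence of the lift
  have key : ∀ h h' : K, w h ≤ 1 → w h' ≤ 1 → w.red h = w.red h' →
      (∀ᶠ n in (U : Filter ι), W n h ≤ 1) → ∀ᶠ n in (U : Filter ι), W n h' ≤ 1 := by
    intro h h' hh hh' he hn
    have h1 : w (h' - h) < 1 := by
      rw [← NV.red_eq_zero (NV.sub_le hh' hh), NV.red_sub hh' hh, he, sub_self]
    filter_upwards [hn, (hw (h' - h)).eventually (gt_mem_nhds h1)] with n hn1 hn2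
    have := NV.add_le hn1 hn2.le
    rwa [add_sub_cancel] at this
  let V : ValuationSubring (kap w) :=
    { carrier := {a | ∃ h, w h ≤ 1 ∧ w.red h = a ∧ ∀ᶠ n in (U : Filter ι), W n h ≤ 1}
      mul_mem' := by
        rintro _ _ ⟨a, ha, rfl, ha'⟩ ⟨b, hb, rfl, hb'⟩
        refine ⟨a * b, NV.mul_le_one ha hb, NV.red_mul ha hb, ?_⟩
        filter_upwards [ha', hb'] with n hn hn'
        exact NV.mul_le_one hn hn'
      one_mem' := ⟨1, by rw [map_one], NV.red_one, Eventually.of_forall fun n => by rw [map_one]⟩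
      add_mem' := by
        rintro _ _ ⟨a, ha, rfl, ha'⟩ ⟨b, hb, rfl, hb'⟩
        refine ⟨a + b, NV.add_le ha hb, NV.red_add ha hb, ?_⟩
        filter_upwards [ha', hb'] with n hn hn'
        exact NV.add_le hn hn'
      zero_mem' := ⟨0, by rw [map_zero]; exact zero_le_one, NV.red_zero,
        Eventually.of_forall fun n => by rw [map_zero]; exact zero_le_one⟩
      neg_mem' := by
        rintro _ ⟨a, ha, rfl, ha'⟩
        refine ⟨-a, by rwa [NV.map_neg'], NV.red_neg ha, ?_⟩
        filter_upwards [ha'] with n hn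
        rwa [NV.map_neg']
      mem_or_inv_mem' := by
        intro a
        obtain ⟨h, hh, rfl⟩ := NV.red_surj a
        by_cases h1 : w h < 1
        · left
          refine ⟨h, hh, rfl, ?_⟩
          filter_upwards [(hw h).eventually (gt_mem_nhds h1)] with n hn
          exact hn.le
        have h2 : w h = 1 := le_antisymm hh (not_lt.1 h1)
        by_cases h3 : ∀ᶠ n in (U : Filter ι), W n h ≤ 1
        · exact Or.inl ⟨h, hh, rfl, h3⟩
        · right
          refine ⟨h⁻¹, by rw [map_inv₀, h2, inv_one], NV.red_inv h2, ?_⟩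
          rw [← Ultrafilter.eventually_not] at h3
          filter_upwards [h3] with n hn
          rw [map_inv₀]
          exact inv_le_one_of_one_le₀ (not_le.1 hn).le }
  have hV : ∀ h : K, w h ≤ 1 → (w.red h ∈ V ↔ ∀ᶠ n in (U : Filter ι), W n h ≤ 1) := by
    intro h hh
    constructor
    · rintro ⟨h', hh', he, hn⟩
      exact key h' h hh' hh he hn
    · intro hn
      exact ⟨h, hh, rfl, hn⟩
  have hTV : w.red T ∉ V := by
    rw [hV T hT, ← Ultrafilter.eventually_not]
    filter_upwards [hT'] with n hn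
    exact not_le.2 hn
  refine ⟨⟨V, ?_, ?_⟩, hTV, hw, hV⟩
  · intro a
    obtain ⟨c, hc, rfl⟩ := cred_surj a
    refine ⟨algebraMap C K c, by rwa [w.ext'], NV.red_algebraMap hc, ?_⟩
    refine Eventually.of_forall fun n => ?_
    rwa [(W n).ext']
  · intro h
    rw [h] at hTV
    exact hTV trivial

/-- **(L1)**: the limit of a family over the Gauss norms of `T / s n`. -/
theorem exists_spz (hs1 : ∀ᶠ n in (U : Filter ι), 1 < ‖s n‖)
    (hs : Tendsto (fun n => ‖s n‖) U (𝓝 1))
    (hW : ∀ᶠ n in (U : Filter ι), (W n).OverG (T / algebraMap C K (s n)))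
    [Algebra.IsAlgebraic C⟮T⟯ K] :
    ∃ w : NV C K, w.OverG T ∧ ∃ x : Plk (kC C) (kap w), w.red T ∉ x.1 ∧ Spz U W w x := by
  obtain ⟨w, hw⟩ := exists_lim U W (bdd_of hs1 hs hW)
  have hG : w.OverG T := fun P =>
    tendsto_nhds_unique (hw (aeval T P)) (tendsto_aeval hs1 hs hW P)
  refine ⟨w, hG, exists_place hw hG.apply_T.le ?_⟩
  filter_upwards [hs1, hW] with n hn hn'
  have h0 : s n ≠ 0 := by
    intro h
    rw [h, norm_zero] at hn
    linarith
  have h1 := hn'.apply_T
  rw [map_div₀, (W n).ext', div_eq_one_iff_eq (norm_ne_zero_iff.2 h0)] at h1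
  rw [h1]
  exact hn

/-! ## Vanishing -/

section van

variable {w : NV C K} {x : Plk (kC C) (kap w)}

/-- the values at the family, according to the order of the residue -/
theorem Spz.lt_one [CFF (kC C) (kap w)] (hx : Spz U W w x) {h : K} (hh : w h ≤ 1)
    (hv : w.red h ∈ Mge x 1) : ∀ᶠ n in (U : Filter ι), W n h < 1 := by
  by_cases h1 : w h < 1
  · exact (hx.conv h).eventually (gt_mem_nhds h1)
  have h2 : w h = 1 := le_antisymm hh (not_lt.1 h1)
  have h3 : w.red h ≠ 0 := NV.red_ne_zero h2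
  have h4 : w.red h⁻¹ ∉ x.1 := by
    rw [NV.red_inv h2, mem_iff_ord, ord_inv]
    rcases hv with hv | hv
    · exact absurd hv h3
    · rintro (h | h)
      · exact inv_ne_zero h3 h
      · omega
  rw [hx.reg _ (by rw [map_inv₀, h2, inv_one]), ← Ultrafilter.eventually_not] at h4
  filter_upwards [h4] with n hn
  rw [map_inv₀, not_le] at hn
  by_contra hcon
  exact absurd (inv_le_one_of_one_le₀ (not_lt.1 hcon)) (not_le.2 hn)

theorem Spz.le_one [CFF (kC C) (kap w)] (hx : Spz U W w x) {h : K} (hh : w h ≤ 1)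
    (hv : w.red h ∈ Mge x 0) : ∀ᶠ n in (U : Filter ι), W n h ≤ 1 :=
  (hx.reg h hh).1 ((mem_iff_ord x _).2 hv)

theorem Spz.one_lt [CFF (kC C) (kap w)] (hx : Spz U W w x) {h : K} (hh : w h ≤ 1)
    (hv : ord x (w.red h) < 0) : ∀ᶠ n in (U : Filter ι), 1 < W n h := by
  have h4 : w.red h ∉ x.1 := by
    rw [mem_iff_ord]
    rintro (h | h)
    · rw [h, ord_zero] at hv
      exact lt_irrefl _ hv
    · omega
  rw [hx.reg _ hh, ← Ultrafilter.eventually_not] at h4
  filter_upwards [h4] with n hn
  exact not_le.1 hn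

theorem Spz.eq_one [CFF (kC C) (kap w)] (hx : Spz U W w x) {h : K} (hh : w h = 1)
    (hv : ord x (w.red h) = 0) : ∀ᶠ n in (U : Filter ι), W n h = 1 := by
  have h1 := hx.le_one hh.le (Or.inr hv.ge)
  have h2 := hx.le_one (h := h⁻¹) (by rw [map_inv₀, hh, inv_one])
    (Or.inr (by rw [NV.red_inv hh, ord_inv, hv, neg_zero]))
  filter_upwards [h1, h2] with n hn1 hn2
  refine le_antisymm hn1 ?_
  rw [map_inv₀] at hn2
  by_contra hcon
  push Not at hcon
  have h0 : 0 < W n h := (W n).av.pos (by rintro rfl; rw [map_zero] at hh; exact zero_ne_one hh)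
  exact absurd hn2 (not_le.2 ((one_lt_inv₀ h0).2 hcon))

/-- the limit is determined by the family -/
theorem Spz.unique {w' : NV C K} {x' : Plk (kC C) (kap w')} (hx : Spz U W w x)
    (hx' : Spz U W w' x') :
    (⟨w, x⟩ : Σ w : NV C K, Plk (kC C) (kap w)) = ⟨w', x'⟩ := by
  have h1 : w = w' := by
    refine NV.ext ?_
    ext h
    exact tendsto_nhds_unique (hx.conv h) (hx'.conv h)
  subst h1
  congr 1
  refine Subtype.ext ?_
  ext a
  obtain ⟨h, hh, rfl⟩ := NV.red_surj a
  rw [hx.reg h hh, hx'.reg h hh]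

end van

end

end P025H651
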