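import Vale.Agent.P025.R2.H651.Branch
import Vale.Agent.P025.R2.H725.StabPlug

/-!
# P025 (7.3), G-BRANCH (helper651): the exact outputs for Theorem 7
-/

set_option linter.all false

open Polynomial Metric IntermediateField

universe u

namespace P025H651

open Vale.Agent.P019P P025H373 P025H746

section out

variable {C K : Type u} [NontriviallyNormedField C] [IsUltrametricDist C] [CompleteSpace C]
  [IsAlgClosed C] [Field K] [Algebra C K] [CFF C K]

theorem stabSum (hC : P025H458.Sph C) (hn : ∀ r : ℝ, 0 ≤ r → ∃ x : C, ‖x‖ = r) :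
    ∀ z : K, Transcendental C z →
      ∑ᶠ w : {w : NV C K // w.OverG z}, Module.finrank (kC C)⟮w.1.red z⟯ (kap w.1) =
        Module.finrank C⟮z⟯ K := by
  intro z hz
  have hzc : ∀ c : C, z ≠ algebraMap C K c := fun c hc => hz (by
    rw [hc]
    exact isAlgebraic_algebraMap c)
  haveI hfin : FiniteDimensional C⟮z⟯ K := (finite_of_notMem hzc).2
  rw [finsum_eq_sum_of_fintype]
  exact (P025H746.stab hC hn hz).1

/-- (7.3)(b) in the form used by Theorem 7 -/
theorem unrAll (hC : P025H458.Sph C) (hv : ∀ r : ℝ, 0 ≤ r → ∃ x : C, ‖x‖ = r) {p : ℕ}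
    (hp : p.Prime) (hpC : ‖(p : C)‖ < 1) (h0 : (p : C) ≠ 0)
    (hN : P025H621.NearAll C p K) : P025H725.UnrAll C p K := by
  intro l hl f hf hd T w hw y A hy hA h _ x
  exact branch (stabSum hC hv) hv hp hpC h0 hN hl hf hd hA hy h x

/-- (7.3)(a) in the form used by Theorem 7 -/
theorem splitNear' (hC : P025H458.Sph C) (hv : ∀ r : ℝ, 0 ≤ r → ∃ x : C, ‖x‖ = r) {p : ℕ}
    (hp : p.Prime) (hpC : ‖(p : C)‖ < 1) (h0 : (p : C) ≠ 0)
    (hN : P025H621.NearAll C p K) : P025H621.SplitNear C p K := by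
  intro f hf hd t ht a b hb
  exact splitNear (stabSum hC hv) hv hp hpC h0 hN f hf hd t ht a b hb

/-- **Theorem 7**, spherically complete case, from (7.2) only. -/
theorem start7 [CharZero C] (hv : ∀ r : ℝ, 0 ≤ r → ∃ x : C, ‖x‖ = r) (hC : P025H458.Sph C)
    {p : ℕ} (hp : p.Prime) (hpC : ‖(p : C)‖ < 1) (hg : 1 ≤ gen C K)
    (hK : P025H621.NearAll C p K)
    (hW : ∀ (W : Type u) [Field W] [Algebra K W] [Algebra C W] [IsScalarTower C K W] [CFF C W],
      P025H621.IsCover C p K W → P025H621.NearAll C p W) : False := by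
  have h0 : (p : C) ≠ 0 := by exact_mod_cast hp.ne_zero
  exact P025H725.start_of' hv hC hp hpC hg hK hW (splitNear' hC hv hp hpC h0 hK)
    (unrAll hC hv hp hpC h0 hK)

end out

end P025H651
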